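import Mathlib

namespace Vale.Agent.Results.P034.LaminarSupport

open Finset

/-- A sum over a finite union is at most the sum of the sums over the pieces. -/
theorem sum_biUnion_le_sum {ι α : Type*} [DecidableEq α] (s : Finset ι) (t : ι → Finset α)
    (f : α → ℝ) (hf : ∀ x, 0 ≤ f x) :
    ∑ x ∈ s.biUnion t, f x ≤ ∑ i ∈ s, ∑ x ∈ t i, f x := by
  classical
  induction s using Finset.induction_on with
  | empty => simp
  | insert i s hi ih =>
    rw [Finset.biUnion_insert, Finset.sum_insert hi]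
    have h1 : ∑ x ∈ t i ∪ s.biUnion t, f x ≤ ∑ x ∈ t i, f x + ∑ x ∈ s.biUnion t, f x := by
      have h3 := Finset.sum_union_inter (s₁ := t i) (s₂ := s.biUnion t) (f := f)
      have h2 : 0 ≤ ∑ x ∈ t i ∩ s.biUnion t, f x := Finset.sum_nonneg (fun x _ => hf x)
      linarith
    linarith

/-- The elementary symmetric sum of order `k` is controlled by an exponential. -/
theorem esymm_bound {ι : Type*} [DecidableEq ι] (I : Finset ι) (ρ : ι → ℝ) (hρ : ∀ i, 0 ≤ ρ i)
    (k : ℕ) (t : ℝ) (ht : 0 ≤ t) :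
    t ^ k * ∑ T ∈ I.powersetCard k, ∏ i ∈ T, ρ i ≤ Real.exp (t * ∑ i ∈ I, ρ i) := by
  have h1 : t ^ k * ∑ T ∈ I.powersetCard k, ∏ i ∈ T, ρ i
      = ∑ T ∈ I.powersetCard k, ∏ i ∈ T, (t * ρ i) := by
    rw [Finset.mul_sum]
    refine Finset.sum_congr rfl (fun T hT => ?_)
    rw [Finset.prod_mul_distrib, Finset.prod_const, (Finset.mem_powersetCard.mp hT).2]
  have h2 : ∑ T ∈ I.powersetCard k, ∏ i ∈ T, (t * ρ i)
      ≤ ∑ T ∈ I.powerset, ∏ i ∈ T, (t * ρ i) :=
    Finset.sum_le_sum_of_subset_of_nonneg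
      (fun T hT => Finset.mem_powerset.mpr (Finset.mem_powersetCard.mp hT).1)
      (fun T _ _ => Finset.prod_nonneg (fun i _ => mul_nonneg ht (hρ i)))
  have h3 : ∑ T ∈ I.powerset, ∏ i ∈ T, (t * ρ i) = ∏ i ∈ I, (1 + t * ρ i) :=
    (Finset.prod_one_add I).symm
  have h4 : ∏ i ∈ I, (1 + t * ρ i) ≤ Real.exp (∑ i ∈ I, t * ρ i) :=
    Real.prod_one_add_le_exp_sum I (fun i => mul_nonneg ht (hρ i))
  rw [h1, Finset.mul_sum]
  linarith

theorem sum_geom_fifth (M : ℕ) :
    ∑ a ∈ Finset.range M, (1 / 5 : ℝ) ^ (a + 1) ≤ 1 / 4 - (1 / 4) * (1 / 5 : ℝ) ^ M := by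
  induction M with
  | zero => simp
  | succ M ih =>
    rw [Finset.sum_range_succ, pow_succ]
    linarith

theorem sum_weighted_sixteenth (M : ℕ) :
    ∑ a ∈ Finset.range M, (a : ℝ) * (1 / 16 : ℝ) ^ a
      ≤ 1 / 8 - (15 * (M : ℝ) + 1) / 8 * (1 / 16 : ℝ) ^ M := by
  induction M with
  | zero => simp
  | succ M ih =>
    rw [Finset.sum_range_succ, pow_succ]
    push_cast
    have hpos : 0 ≤ (1 / 16 : ℝ) ^ M := by positivity
    have hM : 0 ≤ (M : ℝ) := Nat.cast_nonneg M
    nlinarith [mul_nonneg hM hpos]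

theorem geom_half (p : ℝ) (hp0 : 0 ≤ p) (hp : p ≤ 1 / 2) (M : ℕ) :
    ∑ j ∈ Finset.range M, p ^ j ≤ 2 - 2 * p ^ M := by
  induction M with
  | zero => simp
  | succ M ih =>
    rw [Finset.sum_range_succ, pow_succ]
    have h1 : 0 ≤ p ^ M := pow_nonneg hp0 M
    nlinarith [mul_nonneg h1 (by linarith : (0 : ℝ) ≤ 1 - 2 * p)]

/-- Core covering statement: weights `G` on a family `L` of nonempty sets with total cost at
most `1` at `p`; every pairwise disjoint subfamily of weight at least `1/2` contains the union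
of a cheap set. -/
theorem core {X : Type*} [DecidableEq X] (L : Finset (Finset X)) (G : Finset X → ℝ) (p : ℝ)
    (hp0 : 0 ≤ p) (hG : ∀ T ∈ L, 0 < G T) (hne : ∀ T ∈ L, T.Nonempty)
    (hcost : ∑ T ∈ L, G T * p ^ T.card ≤ 1) :
    ∃ C : Finset (Finset X), ∑ S ∈ C, (p / 1024) ^ S.card ≤ 1 / 2 ∧
      ∀ Ts : Finset (Finset X), Ts ⊆ L → (∀ A ∈ Ts, ∀ B ∈ Ts, A ≠ B → Disjoint A B) →
        1 / 2 ≤ ∑ T ∈ Ts, G T → ∃ S ∈ C, S ⊆ Ts.biUnion id := by
  classical
  have hex : ∀ T ∈ L, ∃ n : ℕ, (1 / 16 : ℝ) ^ (n + 1) < G T := by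
    intro T hT
    obtain ⟨n, hn⟩ := exists_pow_lt_of_lt_one (hG T hT) (by norm_num : (1 / 16 : ℝ) < 1)
    refine ⟨n, lt_of_le_of_lt ?_ hn⟩
    rw [pow_succ]
    have h0 : 0 ≤ (1 / 16 : ℝ) ^ n := by positivity
    nlinarith
  let cls : Finset X → ℕ := fun T =>
    if h : ∃ n : ℕ, (1 / 16 : ℝ) ^ (n + 1) < G T then Nat.find h else 0
  have hcls1 : ∀ T ∈ L, (1 / 16 : ℝ) ^ (cls T + 1) < G T := by
    intro T hT
    have h := hex T hT
    have hc : cls T = Nat.find h := by simp only [cls, dif_pos h]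
    rw [hc]
    exact Nat.find_spec h
  have hcls2 : ∀ T ∈ L, cls T ≠ 0 → G T ≤ (1 / 16 : ℝ) ^ (cls T) := by
    intro T hT h0
    have h := hex T hT
    have hc : cls T = Nat.find h := by simp only [cls, dif_pos h]
    have hlt : cls T - 1 < Nat.find h := by omega
    have hmin := Nat.find_min h hlt
    rw [not_lt] at hmin
    have e : cls T - 1 + 1 = cls T := by omega
    rwa [e] at hmin
  set N : ℕ := L.sup cls with hN
  have hclsN : ∀ T ∈ L, cls T ∈ Finset.range (N + 1) := by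
    intro T hT
    exact Finset.mem_range.mpr (Nat.lt_succ_of_le (Finset.le_sup hT))
  let I : ℕ → Finset (Finset X) := fun a => L.filter (fun T => cls T = a)
  let c : ℕ → ℝ := fun a => ∑ T ∈ I a, G T * p ^ T.card
  let k : ℕ → ℕ := fun a => 1 + a + ⌊(16 : ℝ) ^ a * c a / 4⌋₊
  have hterm : ∀ T ∈ L, 0 ≤ G T * p ^ T.card :=
    fun T hT => mul_nonneg (hG T hT).le (pow_nonneg hp0 _)
  have hc0 : ∀ a, 0 ≤ c a := fun a =>
    Finset.sum_nonneg (fun T hT => hterm T (Finset.mem_filter.mp hT).1)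
  have hc1 : ∀ a, c a ≤ 1 := fun a =>
    le_trans (Finset.sum_le_sum_of_subset_of_nonneg (Finset.filter_subset _ _)
      (fun T hT _ => hterm T hT)) hcost
  have hcsum : ∑ a ∈ Finset.range (N + 1), c a = ∑ T ∈ L, G T * p ^ T.card :=
    Finset.sum_fiberwise_of_maps_to hclsN _
  have hk1 : ∀ a, a + 1 ≤ k a := fun a => by simp only [k]; omega
  have hk2 : ∀ a, (16 : ℝ) ^ a * c a / 4 ≤ (k a : ℝ) := by
    intro a
    have h := Nat.lt_floor_add_one ((16 : ℝ) ^ a * c a / 4)
    have h2 : ((⌊(16 : ℝ) ^ a * c a / 4⌋₊ : ℝ) + 1) ≤ (k a : ℝ) := by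
      simp only [k]; push_cast; linarith [Nat.cast_nonneg (α := ℝ) a]
    linarith
  set q : ℝ := p / 1024 with hq
  have hq0 : 0 ≤ q := by positivity
  -- the sum of the costs of the members of a class
  have hs : ∀ a, ∑ T ∈ I a, q ^ T.card ≤ (k a : ℝ) / 16 := by
    intro a
    have h1 : ∑ T ∈ I a, q ^ T.card
        ≤ ∑ T ∈ I a, (16 : ℝ) ^ (a + 1) / 1024 * (G T * p ^ T.card) := by
      refine Finset.sum_le_sum (fun T hT => ?_)
      have hTL : T ∈ L := (Finset.mem_filter.mp hT).1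
      have hTa : cls T = a := (Finset.mem_filter.mp hT).2
      have hcard : 1 ≤ T.card := Finset.card_pos.mpr (hne T hTL)
      have hpn : 0 ≤ p ^ T.card := pow_nonneg hp0 _
      have hq1 : q ^ T.card ≤ p ^ T.card / 1024 := by
        rw [hq, div_pow]
        have h1024 : (1024 : ℝ) ≤ 1024 ^ T.card := by
          calc (1024 : ℝ) = 1024 ^ 1 := by norm_num
            _ ≤ 1024 ^ T.card := pow_le_pow_right₀ (by norm_num) hcard
        exact div_le_div_of_nonneg_left hpn (by norm_num) h1024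
      have hG1 : 1 ≤ (16 : ℝ) ^ (a + 1) * G T := by
        have h := hcls1 T hTL
        rw [hTa] at h
        have h16 : (0 : ℝ) < 16 ^ (a + 1) := by positivity
        have h2 : (16 : ℝ) ^ (a + 1) * (1 / 16 : ℝ) ^ (a + 1) = 1 := by
          rw [← mul_pow]; norm_num
        nlinarith [mul_lt_mul_of_pos_left h h16]
      calc q ^ T.card ≤ p ^ T.card / 1024 := hq1
        _ ≤ ((16 : ℝ) ^ (a + 1) * G T) * p ^ T.card / 1024 := by
          apply div_le_div_of_nonneg_right _ (by norm_num)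
          nlinarith
        _ = (16 : ℝ) ^ (a + 1) / 1024 * (G T * p ^ T.card) := by ring
    have h2 : ∑ T ∈ I a, (16 : ℝ) ^ (a + 1) / 1024 * (G T * p ^ T.card)
        = (16 : ℝ) ^ a * c a / 64 := by
      rw [← Finset.mul_sum]
      simp only [c]
      rw [pow_succ]; ring
    have h3 := hk2 a
    linarith
  -- the elementary symmetric sums
  have hE : ∀ a, ∑ Ts ∈ (I a).powersetCard (k a), ∏ T ∈ Ts, q ^ T.card ≤ (1 / 5 : ℝ) ^ (k a) := by
    intro a
    have h1 := esymm_bound (I a) (fun T => q ^ T.card) (fun T => pow_nonneg hq0 _) (k a) 16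
      (by norm_num)
    have h2 : Real.exp (16 * ∑ T ∈ I a, q ^ T.card) ≤ Real.exp (k a) := by
      apply Real.exp_le_exp.mpr
      have := hs a
      linarith
    have h3 : Real.exp (k a) = Real.exp 1 ^ (k a) := by
      rw [← Real.exp_nat_mul, mul_one]
    have h4 : Real.exp 1 ^ (k a) ≤ (16 / 5 : ℝ) ^ (k a) := by
      apply pow_le_pow_left₀ (Real.exp_pos 1).le
      have := Real.exp_one_lt_d9
      norm_num at this ⊢
      linarith
    have h5 : (16 : ℝ) ^ (k a) * ∑ Ts ∈ (I a).powersetCard (k a), ∏ T ∈ Ts, q ^ T.card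
        ≤ (16 / 5 : ℝ) ^ (k a) := by linarith
    have h6 : (16 / 5 : ℝ) ^ (k a) = (16 : ℝ) ^ (k a) * (1 / 5 : ℝ) ^ (k a) := by
      rw [← mul_pow]; norm_num
    rw [h6] at h5
    exact le_of_mul_le_mul_left h5 (by positivity)
  let Ca : ℕ → Finset (Finset X) := fun a =>
    (((I a).powersetCard (k a)).filter
      (fun Ts => ∀ A ∈ Ts, ∀ B ∈ Ts, A ≠ B → Disjoint A B)).image (fun Ts => Ts.biUnion id)
  have hCa : ∀ a, ∑ S ∈ Ca a, q ^ S.card ≤ (1 / 5 : ℝ) ^ (a + 1) := by
    intro a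
    have h1 : ∑ S ∈ Ca a, q ^ S.card
        ≤ ∑ Ts ∈ ((I a).powersetCard (k a)).filter
            (fun Ts => ∀ A ∈ Ts, ∀ B ∈ Ts, A ≠ B → Disjoint A B), q ^ (Ts.biUnion id).card :=
      Finset.sum_image_le_of_nonneg (fun S _ => pow_nonneg hq0 _)
    have h2 : ∑ Ts ∈ ((I a).powersetCard (k a)).filter
            (fun Ts => ∀ A ∈ Ts, ∀ B ∈ Ts, A ≠ B → Disjoint A B), q ^ (Ts.biUnion id).card
        = ∑ Ts ∈ ((I a).powersetCard (k a)).filter
            (fun Ts => ∀ A ∈ Ts, ∀ B ∈ Ts, A ≠ B → Disjoint A B), ∏ T ∈ Ts, q ^ T.card := by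
      refine Finset.sum_congr rfl (fun Ts hTs => ?_)
      have hd := (Finset.mem_filter.mp hTs).2
      have hpd : (Ts : Set (Finset X)).PairwiseDisjoint id := by
        intro A hA B hB hAB
        exact hd A hA B hB hAB
      rw [Finset.card_biUnion hpd, Finset.prod_pow_eq_pow_sum]
      rfl
    have h3 : ∑ Ts ∈ ((I a).powersetCard (k a)).filter
            (fun Ts => ∀ A ∈ Ts, ∀ B ∈ Ts, A ≠ B → Disjoint A B), ∏ T ∈ Ts, q ^ T.card
        ≤ ∑ Ts ∈ (I a).powersetCard (k a), ∏ T ∈ Ts, q ^ T.card :=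
      Finset.sum_le_sum_of_subset_of_nonneg (Finset.filter_subset _ _)
        (fun Ts _ _ => Finset.prod_nonneg (fun T _ => pow_nonneg hq0 _))
    have h4 : (1 / 5 : ℝ) ^ (k a) ≤ (1 / 5 : ℝ) ^ (a + 1) :=
      pow_le_pow_of_le_one (by norm_num) (by norm_num) (hk1 a)
    have h5 := hE a
    linarith
  refine ⟨(Finset.range (N + 1)).biUnion Ca, ?_, ?_⟩
  · have h1 := sum_biUnion_le_sum (Finset.range (N + 1)) Ca (fun S => q ^ S.card)
      (fun S => pow_nonneg hq0 _)
    have h2 : ∑ a ∈ Finset.range (N + 1), ∑ S ∈ Ca a, q ^ S.card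
        ≤ ∑ a ∈ Finset.range (N + 1), (1 / 5 : ℝ) ^ (a + 1) :=
      Finset.sum_le_sum (fun a _ => hCa a)
    have h3 := sum_geom_fifth (N + 1)
    have h4 : 0 ≤ (1 / 5 : ℝ) ^ (N + 1) := by positivity
    linarith
  · intro Ts hTs hdisj hsum
    by_contra hcon
    have hsmall : ∀ a ∈ Finset.range (N + 1), (Ts.filter (fun T => cls T = a)).card < k a := by
      intro a ha
      by_contra hge
      rw [not_lt] at hge
      obtain ⟨Ts', hsub, hcard⟩ := Finset.exists_subset_card_eq hge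
      apply hcon
      refine ⟨Ts'.biUnion id, ?_, ?_⟩
      · refine Finset.mem_biUnion.mpr ⟨a, ha, ?_⟩
        refine Finset.mem_image.mpr ⟨Ts', ?_, rfl⟩
        refine Finset.mem_filter.mpr ⟨Finset.mem_powersetCard.mpr ⟨?_, hcard⟩, ?_⟩
        · intro T hT
          have hT' := Finset.mem_filter.mp (hsub hT)
          exact Finset.mem_filter.mpr ⟨hTs hT'.1, hT'.2⟩
        · intro A hA B hB hAB
          exact hdisj A (Finset.mem_filter.mp (hsub hA)).1 B (Finset.mem_filter.mp (hsub hB)).1 hAB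
      · exact Finset.biUnion_subset_biUnion_of_subset_left _
          (fun T hT => (Finset.mem_filter.mp (hsub hT)).1)
    have hfib : ∑ T ∈ Ts, G T
        = ∑ a ∈ Finset.range (N + 1), ∑ T ∈ Ts.filter (fun T => cls T = a), G T :=
      (Finset.sum_fiberwise_of_maps_to (fun T hT => hclsN T (hTs hT)) _).symm
    have hclass : ∀ a ∈ Finset.range (N + 1),
        ∑ T ∈ Ts.filter (fun T => cls T = a), G T ≤ (a : ℝ) * (1 / 16 : ℝ) ^ a + c a / 4 := by
      intro a ha
      have hlt := hsmall a ha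
      rcases Nat.eq_zero_or_pos a with h0 | hpos
      · subst h0
        have hfl : ⌊(16 : ℝ) ^ 0 * c 0 / 4⌋₊ = 0 := by
          apply Nat.floor_eq_zero.mpr
          have := hc1 0
          norm_num
          linarith
        have hk0 : k 0 = 1 := by simp only [k]; omega
        rw [hk0] at hlt
        have hempty : Ts.filter (fun T => cls T = 0) = ∅ := Finset.card_eq_zero.mp (by omega)
        rw [hempty]
        simp
        linarith [hc0 0]
      · have hbound : ∀ T ∈ Ts.filter (fun T => cls T = a), G T ≤ (1 / 16 : ℝ) ^ a := by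
          intro T hT
          have hT' := Finset.mem_filter.mp hT
          have h := hcls2 T (hTs hT'.1) (by rw [hT'.2]; omega)
          rwa [hT'.2] at h
        have h1 := Finset.sum_le_card_nsmul _ _ _ hbound
        rw [nsmul_eq_mul] at h1
        have h2 : ((Ts.filter (fun T => cls T = a)).card : ℝ)
            ≤ (a : ℝ) + (16 : ℝ) ^ a * c a / 4 := by
          have h3 : (Ts.filter (fun T => cls T = a)).card ≤ a + ⌊(16 : ℝ) ^ a * c a / 4⌋₊ := by
            have : k a = 1 + a + ⌊(16 : ℝ) ^ a * c a / 4⌋₊ := rfl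
            omega
          have h4 : (⌊(16 : ℝ) ^ a * c a / 4⌋₊ : ℝ) ≤ (16 : ℝ) ^ a * c a / 4 :=
            Nat.floor_le (by have := hc0 a; positivity)
          have h5 : ((Ts.filter (fun T => cls T = a)).card : ℝ)
              ≤ ((a + ⌊(16 : ℝ) ^ a * c a / 4⌋₊ : ℕ) : ℝ) := by exact_mod_cast h3
          push_cast at h5
          linarith
        have hpow : 0 ≤ (1 / 16 : ℝ) ^ a := by positivity
        have h6 : (16 : ℝ) ^ a * (1 / 16 : ℝ) ^ a = 1 := by rw [← mul_pow]; norm_num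
        have h7 : ((Ts.filter (fun T => cls T = a)).card : ℝ) * (1 / 16 : ℝ) ^ a
            ≤ ((a : ℝ) + (16 : ℝ) ^ a * c a / 4) * (1 / 16 : ℝ) ^ a :=
          mul_le_mul_of_nonneg_right h2 hpow
        have h8 : ((a : ℝ) + (16 : ℝ) ^ a * c a / 4) * (1 / 16 : ℝ) ^ a
            = (a : ℝ) * (1 / 16 : ℝ) ^ a + c a / 4 := by
          have : (16 : ℝ) ^ a * c a / 4 * (1 / 16 : ℝ) ^ a
              = ((16 : ℝ) ^ a * (1 / 16 : ℝ) ^ a) * c a / 4 := by ring
          rw [add_mul, this, h6]; ring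
        linarith
    have htot : ∑ T ∈ Ts, G T
        ≤ ∑ a ∈ Finset.range (N + 1), ((a : ℝ) * (1 / 16 : ℝ) ^ a + c a / 4) := by
      rw [hfib]
      exact Finset.sum_le_sum hclass
    rw [Finset.sum_add_distrib, ← Finset.sum_div, hcsum] at htot
    have h1 := sum_weighted_sixteenth (N + 1)
    have h2 : 0 ≤ (15 * ((N + 1 : ℕ) : ℝ) + 1) / 8 * (1 / 16 : ℝ) ^ (N + 1) := by positivity
    linarith

/-- Talagrand's comparison of fractional and integral expectation thresholds, for fractional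
covers supported on a laminar family: if `g ≥ 0` is a fractional cover of `F` of cost at most
`1/2` at `p` and any two sets of positive weight are nested or disjoint, then `F` has a cover
of cost at most `1/2` at `p / 2048`. -/
theorem result {X : Type} [Fintype X] [DecidableEq X]
    (F : Finset (Finset X)) (g : Finset X → ℝ) (p : ℝ)
    (hp0 : 0 ≤ p) (hp1 : p ≤ 1)
    (hg : ∀ S, 0 ≤ g S)
    (hlam : ∀ S T, g S ≠ 0 → g T ≠ 0 → S ⊆ T ∨ T ⊆ S ∨ Disjoint S T)
    (hcov : ∀ H ∈ F, 1 ≤ ∑ S ∈ H.powerset, g S)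
    (hcost : ∑ S : Finset X, g S * p ^ S.card ≤ 1 / 2) :
    ∃ C : Finset (Finset X), (∀ H ∈ F, ∃ S ∈ C, S ⊆ H) ∧
      ∑ S ∈ C, (p / 2048) ^ S.card ≤ 1 / 2 := by
  classical
  set p0 : ℝ := min p (1 / 2) with hp0def
  have hp00 : 0 ≤ p0 := le_min hp0 (by norm_num)
  have hp0p : p0 ≤ p := min_le_left _ _
  have hp0h : p0 ≤ 1 / 2 := min_le_right _ _
  have hcost0 : ∑ S : Finset X, g S * p0 ^ S.card ≤ 1 / 2 := by
    refine le_trans (Finset.sum_le_sum (fun S _ => ?_)) hcost
    exact mul_le_mul_of_nonneg_left (pow_le_pow_left₀ hp00 hp0p _) (hg S)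
  let L : Finset (Finset X) := Finset.univ.filter (fun S => g S ≠ 0 ∧ S.Nonempty)
  let G : Finset X → ℝ := fun T => ∑ S ∈ L.filter (fun S => S ⊆ T), g S
  have hLmem : ∀ S, S ∈ L ↔ (g S ≠ 0 ∧ S.Nonempty) := by
    intro S; simp only [L, Finset.mem_filter, Finset.mem_univ, true_and]
  have hgempty : g ∅ ≤ 1 / 2 := by
    have h := Finset.single_le_sum (f := fun S : Finset X => g S * p0 ^ S.card)
      (fun S _ => mul_nonneg (hg S) (pow_nonneg hp00 _)) (Finset.mem_univ (∅ : Finset X))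
    simp only [Finset.card_empty, pow_zero, mul_one] at h
    linarith
  have hGpos : ∀ T ∈ L, 0 < G T := by
    intro T hT
    have hT' := (hLmem T).mp hT
    have h1 : g T ≤ G T := Finset.single_le_sum (f := fun S => g S) (fun S _ => hg S)
      (Finset.mem_filter.mpr ⟨hT, subset_rfl⟩)
    have h2 : 0 < g T := lt_of_le_of_ne (hg T) (Ne.symm hT'.1)
    linarith
  have hne : ∀ T ∈ L, T.Nonempty := fun T hT => ((hLmem T).mp hT).2
  -- chains above a fixed member
  have hchain : ∀ S ∈ L, ∑ T ∈ L.filter (fun T => S ⊆ T), p0 ^ T.card ≤ 2 * p0 ^ S.card := by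
    intro S hS
    have hSne := hne S hS
    have hinj : Set.InjOn (fun T : Finset X => T.card) (L.filter (fun T => S ⊆ T) : Set (Finset X)) := by
      intro T1 h1 T2 h2 hcard
      have h1' := Finset.mem_filter.mp (Finset.mem_coe.mp h1)
      have h2' := Finset.mem_filter.mp (Finset.mem_coe.mp h2)
      have hcard' : T1.card = T2.card := hcard
      rcases hlam T1 T2 ((hLmem T1).mp h1'.1).1 ((hLmem T2).mp h2'.1).1 with h | h | h
      · exact Finset.eq_of_subset_of_card_le h (by omega)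
      · exact (Finset.eq_of_subset_of_card_le h (by omega)).symm
      · exfalso
        obtain ⟨x, hx⟩ := hSne
        exact (Finset.disjoint_left.mp h) (h1'.2 hx) (h2'.2 hx)
    have h1 : ∑ T ∈ L.filter (fun T => S ⊆ T), p0 ^ T.card
        = ∑ n ∈ (L.filter (fun T => S ⊆ T)).image (fun T : Finset X => T.card), p0 ^ n :=
      (Finset.sum_image (f := fun n : ℕ => p0 ^ n) hinj).symm
    have h2 : (L.filter (fun T => S ⊆ T)).image (fun T : Finset X => T.card)
        ⊆ Finset.Ico S.card (S.card + (Fintype.card X + 1)) := by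
      intro n hn
      obtain ⟨T, hT, rfl⟩ := Finset.mem_image.mp hn
      have hT' := Finset.mem_filter.mp hT
      have ha : S.card ≤ T.card := Finset.card_le_card hT'.2
      have hb : T.card ≤ Fintype.card X := Finset.card_le_univ T
      exact Finset.mem_Ico.mpr ⟨ha, by omega⟩
    have h3 : ∑ n ∈ (L.filter (fun T => S ⊆ T)).image (fun T : Finset X => T.card), p0 ^ n
        ≤ ∑ n ∈ Finset.Ico S.card (S.card + (Fintype.card X + 1)), p0 ^ n :=
      Finset.sum_le_sum_of_subset_of_nonneg h2 (fun n _ _ => pow_nonneg hp00 n)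
    have h4 : ∑ n ∈ Finset.Ico S.card (S.card + (Fintype.card X + 1)), p0 ^ n
        = p0 ^ S.card * ∑ j ∈ Finset.range (Fintype.card X + 1), p0 ^ j := by
      rw [Finset.sum_Ico_eq_sum_range, Finset.mul_sum]
      have e : S.card + (Fintype.card X + 1) - S.card = Fintype.card X + 1 := by omega
      rw [e]
      exact Finset.sum_congr rfl (fun j _ => pow_add p0 _ _)
    have h5 := geom_half p0 hp00 hp0h (Fintype.card X + 1)
    have h6 : 0 ≤ p0 ^ (Fintype.card X + 1) := pow_nonneg hp00 _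
    have h7 : 0 ≤ p0 ^ S.card := pow_nonneg hp00 _
    have h8 : p0 ^ S.card * ∑ j ∈ Finset.range (Fintype.card X + 1), p0 ^ j
        ≤ p0 ^ S.card * 2 := mul_le_mul_of_nonneg_left (by linarith) h7
    linarith
  have hcostG : ∑ T ∈ L, G T * p0 ^ T.card ≤ 1 := by
    have h1 : ∑ T ∈ L, G T * p0 ^ T.card
        = ∑ T ∈ L, ∑ S ∈ L, if S ⊆ T then g S * p0 ^ T.card else 0 := by
      refine Finset.sum_congr rfl (fun T _ => ?_)
      simp only [G]
      rw [Finset.sum_mul, Finset.sum_filter]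
    have h2 : ∑ T ∈ L, ∑ S ∈ L, (if S ⊆ T then g S * p0 ^ T.card else 0)
        = ∑ S ∈ L, g S * ∑ T ∈ L.filter (fun T => S ⊆ T), p0 ^ T.card := by
      rw [Finset.sum_comm]
      refine Finset.sum_congr rfl (fun S _ => ?_)
      rw [Finset.mul_sum]
      exact (Finset.sum_filter (fun T => S ⊆ T) (fun T => g S * p0 ^ T.card)).symm
    have h3 : ∑ S ∈ L, g S * ∑ T ∈ L.filter (fun T => S ⊆ T), p0 ^ T.card
        ≤ ∑ S ∈ L, g S * (2 * p0 ^ S.card) :=
      Finset.sum_le_sum (fun S hS => mul_le_mul_of_nonneg_left (hchain S hS) (hg S))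
    have h4 : ∑ S ∈ L, g S * (2 * p0 ^ S.card) = 2 * ∑ S ∈ L, g S * p0 ^ S.card := by
      rw [Finset.mul_sum]
      exact Finset.sum_congr rfl (fun S _ => by ring)
    have h5 : ∑ S ∈ L, g S * p0 ^ S.card ≤ ∑ S : Finset X, g S * p0 ^ S.card :=
      Finset.sum_le_sum_of_subset_of_nonneg (Finset.subset_univ _)
        (fun S _ _ => mul_nonneg (hg S) (pow_nonneg hp00 _))
    linarith
  obtain ⟨C, hC1, hC2⟩ := core L G p0 hp00 hGpos hne hcostG
  refine ⟨C, ?_, ?_⟩
  · intro H hH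
    let A : Finset (Finset X) := L.filter (fun S => S ⊆ H)
    let M : Finset (Finset X) := A.filter (fun T => Maximal (fun U => U ∈ A) T)
    have hMsub : M ⊆ L := fun T hT =>
      (Finset.mem_filter.mp (Finset.mem_filter.mp hT).1).1
    have hMdisj : ∀ T ∈ M, ∀ T' ∈ M, T ≠ T' → Disjoint T T' := by
      intro T hT T' hT' hne'
      have hTm := Finset.mem_filter.mp hT
      have hTm' := Finset.mem_filter.mp hT'
      rcases hlam T T' ((hLmem T).mp (hMsub hT)).1 ((hLmem T').mp (hMsub hT')).1 with h | h | h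
      · exact absurd (le_antisymm h (hTm.2.2 hTm'.1 h)) hne'
      · exact absurd (le_antisymm (hTm'.2.2 hTm.1 h) h) hne'
      · exact h
    have hAsum : 1 / 2 ≤ ∑ S ∈ A, g S := by
      have h1 := hcov H hH
      have h2 : ∀ S ∈ H.powerset, g S
          ≤ (if (g S ≠ 0 ∧ S.Nonempty) then g S else 0) + (if S = ∅ then g ∅ else 0) := by
        intro S _
        by_cases hS : S = ∅
        · subst hS
          simp
        · have hSne : S.Nonempty := Finset.nonempty_iff_ne_empty.mpr hS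
          by_cases hgS : g S = 0
          · simp [hgS, hS]
          · simp [hgS, hS, hSne]
      have h3 := Finset.sum_le_sum h2
      rw [Finset.sum_add_distrib, ← Finset.sum_filter] at h3
      have h4 : ∑ S ∈ H.powerset, (if S = ∅ then g ∅ else 0) = g ∅ := by
        rw [Finset.sum_ite_eq']
        simp
      have h5 : H.powerset.filter (fun S => g S ≠ 0 ∧ S.Nonempty) = A := by
        ext S
        simp only [A, L, Finset.mem_filter, Finset.mem_powerset, Finset.mem_univ, true_and]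
        tauto
      rw [h4, h5] at h3
      linarith
    have hMsum : 1 / 2 ≤ ∑ T ∈ M, G T := by
      have h1 : A ⊆ M.biUnion (fun T => L.filter (fun S => S ⊆ T)) := by
        intro S hS
        obtain ⟨T, hST, hTmax⟩ := A.exists_le_maximal hS
        refine Finset.mem_biUnion.mpr ⟨T, Finset.mem_filter.mpr ⟨hTmax.1, hTmax⟩, ?_⟩
        exact Finset.mem_filter.mpr ⟨(Finset.mem_filter.mp hS).1, hST⟩
      have h2 : ∑ S ∈ A, g S ≤ ∑ S ∈ M.biUnion (fun T => L.filter (fun S => S ⊆ T)), g S :=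
        Finset.sum_le_sum_of_subset_of_nonneg h1 (fun S _ _ => hg S)
      have h3 := sum_biUnion_le_sum M (fun T => L.filter (fun S => S ⊆ T)) g hg
      linarith
    obtain ⟨S, hS, hSsub⟩ := hC2 M hMsub hMdisj hMsum
    refine ⟨S, hS, hSsub.trans ?_⟩
    intro x hx
    obtain ⟨T, hT, hxT⟩ := Finset.mem_biUnion.mp hx
    exact (Finset.mem_filter.mp (Finset.mem_filter.mp hT).1).2 hxT
  · refine le_trans (Finset.sum_le_sum (fun S _ => ?_)) hC1
    apply pow_le_pow_left₀ (by positivity)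
    rcases le_total p (1 / 2) with h | h
    · have : p0 = p := min_eq_left h
      rw [this]; linarith
    · have : p0 = 1 / 2 := min_eq_right h
      rw [this]; linarith

end Vale.Agent.Results.P034.LaminarSupport
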