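import Mathlib
import Vale.Agent.Lib.P034.Containment

namespace Vale.Agent.Results.P034.SubgraphContainment

open Vale.Agent.Lib.P034 Vale.Agent.Lib.P064

/-- The ground set is the edge set of the complete graph on `Fin n`; its subsets are the graphs
on `Fin n` and the size of a subset is its number of edges.  The family considered is the family
of all graphs `G` containing a copy of a fixed graph `H` (the image of `H` under some permutation
of the vertices).  `g` is a fractional cover of this family: nonnegative, with total weight at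
least one on the subgraphs of every member, and of cost at most one half at `p`.  Conclusion: a
cover `C` of the family of cost at most one half at `p / (100 * D)` when every vertex of `H` has
degree at most `D` (first part), and at `p / 20000000` when `H` is a star forest, that is, every
edge of `H` has an endpoint of degree one (second part). -/
theorem result :
    (∀ (n : ℕ) (H : SimpleGraph (Fin n)) (D : ℕ), 1 ≤ D →
      (∀ v : Fin n, (H.neighborSet v).ncard ≤ D) →
      ∀ (p : ℝ) (g : SimpleGraph (Fin n) → ℝ), 0 ≤ p → (∀ S, 0 ≤ g S) →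
      (∀ G : SimpleGraph (Fin n), (∃ σ : Equiv.Perm (Fin n), H.map σ.toEmbedding ≤ G) →
        1 ≤ ∑ S : SimpleGraph (Fin n), (Set.Iic G).indicator g S) →
      ∑ S : SimpleGraph (Fin n), g S * p ^ S.edgeSet.ncard ≤ 1 / 2 →
      ∃ C : Finset (SimpleGraph (Fin n)),
        (∀ G : SimpleGraph (Fin n), (∃ σ : Equiv.Perm (Fin n), H.map σ.toEmbedding ≤ G) →
          ∃ S ∈ C, S ≤ G) ∧
        ∑ S ∈ C, (p / (100 * D)) ^ S.edgeSet.ncard ≤ 1 / 2) ∧
    (∀ (n : ℕ) (H : SimpleGraph (Fin n)),
      (∀ u w : Fin n, H.Adj u w →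
        (H.neighborSet u).ncard = 1 ∨ (H.neighborSet w).ncard = 1) →
      ∀ (p : ℝ) (g : SimpleGraph (Fin n) → ℝ), 0 ≤ p → (∀ S, 0 ≤ g S) →
      (∀ G : SimpleGraph (Fin n), (∃ σ : Equiv.Perm (Fin n), H.map σ.toEmbedding ≤ G) →
        1 ≤ ∑ S : SimpleGraph (Fin n), (Set.Iic G).indicator g S) →
      ∑ S : SimpleGraph (Fin n), g S * p ^ S.edgeSet.ncard ≤ 1 / 2 →
      ∃ C : Finset (SimpleGraph (Fin n)),
        (∀ G : SimpleGraph (Fin n), (∃ σ : Equiv.Perm (Fin n), H.map σ.toEmbedding ≤ G) →
          ∃ S ∈ C, S ≤ G) ∧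
        ∑ S ∈ C, (p / 20000000) ^ S.edgeSet.ncard ≤ 1 / 2) := by
  constructor
  · intro n H D hD1 hD p g hp hg hcov hcost
    have hK : (0:ℝ) < 100 * (D:ℝ) := by
      have h1 : (1:ℝ) ≤ (D:ℝ) := by exact_mod_cast hD1
      linarith
    exact small_of_bound H (100 * (D:ℝ)) hK
      (fun p' hp' hE F hFH => bounded_degree_bound n H D hD p' hp' hE F hFH) p hp g hg hcov hcost
  · intro n H hH p g hp hg hcov hcost
    exact small_of_bound H 20000000 (by norm_num)
      (fun p' hp' hE F hFH => threshold_bound n H hH p' hp' hE F hFH) p hp g hg hcov hcost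

end Vale.Agent.Results.P034.SubgraphContainment
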